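import Crest.Agent.R271.S1.Defs

/-! # Row 271, block S1: affine open sets -/

set_option autoImplicit false

open AlgebraicGeometry CategoryTheory Crest.AlgGeometry.Divisors Order Set

namespace Crest.Agent.R271.S1

variable {X : Scheme.{0}} [IsIntegral X] [Algebra ℂ Γ(X, ⊤)]

/-- Generisation enlarges the local ring. -/
theorem St_le_of_spec {x y : X} (h : x ⤳ y) : St y ≤ St x := by
  rintro _ ⟨a, rfl⟩
  refine ⟨X.presheaf.stalkSpecializes h a, ?_⟩
  exact congr($(X.presheaf.stalkSpecializes_comp ((genericPoint_spec X).specializes (mem_univ x)) h) a)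

theorem Un.of_spec {x y : X} (h : x ⤳ y) {f : KK X} (hf : Un y f) : Un x f :=
  ⟨hf.1, St_le_of_spec h hf.2.1, St_le_of_spec h hf.2.2⟩

theorem mem_primeIdealOf {U : X.Opens} (hU : IsAffineOpen U) {x : X} (hx : x ∈ U) (s : Γ(X, U)) :
    s ∈ (hU.primeIdealOf ⟨x, hx⟩).asIdeal ↔ ¬ Un x (toK hx s) := by
  let _ := X.presheaf.algebra_section_stalk ⟨x, hx⟩
  have := hU.isLocalization_stalk ⟨x, hx⟩
  have h := IsLocalization.AtPrime.isUnit_to_map_iff (X.presheaf.stalk x)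
    (hU.primeIdealOf ⟨x, hx⟩).asIdeal s
  rw [isUnit_stalk_iff_Un] at h
  exact not_not.symm.trans (not_congr h.symm)

omit [IsIntegral X] [Algebra ℂ Γ(X, ⊤)] in
theorem exists_point {U : X.Opens} (hU : IsAffineOpen U) (𝔭 : PrimeSpectrum Γ(X, U)) :
    ∃ (x : X) (hx : x ∈ U), hU.primeIdealOf ⟨x, hx⟩ = 𝔭 := by
  have hx : hU.fromSpec 𝔭 ∈ U := by
    change hU.fromSpec 𝔭 ∈ (U : Set X)
    rw [← hU.range_fromSpec]
    exact mem_range_self _
  exact ⟨_, hx, hU.fromSpec.isOpenEmbedding.injective (hU.fromSpec_primeIdealOf ⟨_, hx⟩)⟩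

theorem St_loc' {U : X.Opens} (hU : IsAffineOpen U) {x : X} (hx : x ∈ U) {f : KK X}
    (hf : f ∈ St x) : ∃ a b : Γ(X, U), Un x (toK hx b) ∧ f * toK hx b = toK hx a := by
  obtain ⟨g, rfl⟩ := mem_St.1 hf
  let _ := X.presheaf.algebra_section_stalk ⟨x, hx⟩
  have := hU.isLocalization_stalk ⟨x, hx⟩
  obtain ⟨⟨a, b⟩, h⟩ := IsLocalization.surj (hU.primeIdealOf ⟨x, hx⟩).asIdeal.primeCompl g
  refine ⟨a, b, not_not.1 fun hb => b.2 ((mem_primeIdealOf hU hx b).2 hb), ?_⟩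
  have := congrArg (algebraMap (X.presheaf.stalk x) (KK X)) h
  rw [map_mul] at this
  exact this

/-- A function which is regular at every point of an affine open set is a section. -/
theorem exists_toK {U : X.Opens} (hU : IsAffineOpen U) {x : X} (hx : x ∈ U) {f : KK X}
    (hf : f ∈ Sec U) : ∃ s : Γ(X, U), toK hx s = f := by
  let I : Ideal Γ(X, U) :=
    { carrier := {b | ∃ a, f * toK hx b = toK hx a}
      add_mem' := by
        rintro b b' ⟨a, ha⟩ ⟨a', ha'⟩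
        exact ⟨a + a', by rw [map_add, map_add, mul_add, ha, ha']⟩
      zero_mem' := ⟨0, by rw [map_zero, mul_zero]⟩
      smul_mem' := by
        rintro c b ⟨a, ha⟩
        exact ⟨c * a, by rw [smul_eq_mul, map_mul, map_mul, ← ha, mul_left_comm]⟩ }
  have hI : I = ⊤ := by
    by_contra hI
    obtain ⟨𝔪, h𝔪, hle⟩ := Ideal.exists_le_maximal I hI
    obtain ⟨y, hy, e⟩ := exists_point hU ⟨𝔪, h𝔪.isPrime⟩
    obtain ⟨a, b, hb, hab⟩ := St_loc' hU hy (Sec_le hy hf)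
    have hbI : b ∈ I := ⟨a, by rwa [toK_congr hx hy]⟩
    exact (mem_primeIdealOf hU hy b).1 (by rw [e]; exact hle hbI) hb
  obtain ⟨a, ha⟩ : (1 : Γ(X, U)) ∈ I := hI ▸ Submodule.mem_top
  exact ⟨a, by rw [← ha, map_one, mul_one]⟩

/-- `Γ(X, U) ≃ Sec U` -/
noncomputable def secEquiv {U : X.Opens} (hU : IsAffineOpen U) {x : X} (hx : x ∈ U) :
    Γ(X, U) ≃+* Sec U :=
  RingEquiv.ofBijective ((toK hx).codRestrict (Sec U) (toK_mem_Sec hx))
    ⟨fun _ _ h => toK_injective hx (congrArg Subtype.val h), fun f =>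
      (exists_toK hU hx f.2).imp fun _ h => Subtype.ext h⟩

@[simp] theorem coe_secEquiv {U : X.Opens} (hU : IsAffineOpen U) {x : X} (hx : x ∈ U)
    (s : Γ(X, U)) : (secEquiv hU hx s : KK X) = toK hx s := rfl

/-- `secEquiv` is `ℂ`-linear. -/
theorem secEquiv_algebraMap {U : X.Opens} (hU : IsAffineOpen U) {x : X} (hx : x ∈ U) (c : ℂ) :
    secEquiv hU hx (X.presheaf.map (homOfLE (le_top : U ≤ ⊤)).op (algebraMap ℂ Γ(X, ⊤) c)) =
      algebraMap ℂ (Sec U) c := by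
  refine Subtype.ext ?_
  rw [coe_secEquiv]
  refine Eq.trans ?_ (algebraMap_K x c).symm
  exact congrArg (algebraMap (X.presheaf.stalk x) (KK X))
    (X.presheaf.germ_res_apply (homOfLE (le_top : U ≤ ⊤)) x hx _)

/-- The local ring is the localisation of `Sec U`. -/
theorem St_loc {U : X.Opens} (hU : IsAffineOpen U) {x : X} (hx : x ∈ U) {f : KK X}
    (hf : f ∈ St x) : ∃ a ∈ Sec U, ∃ b ∈ Sec U, Un x b ∧ f = a / b := by
  obtain ⟨a, b, hb, h⟩ := St_loc' hU hx hf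
  exact ⟨_, toK_mem_Sec hx a, _, toK_mem_Sec hx b, hb, eq_div_of_mul_eq hb.1 h⟩

theorem isLocalization_St {U : X.Opens} (hU : IsAffineOpen U) {x : X} (hx : x ∈ U) :
    letI := algSecSt hx
    IsLocalization.AtPrime (St x) (pr hx) := by
  let _ := algSecSt hx
  refine (isLocalization_iff _ _).2 ⟨fun b => isUnit_iff_Un.2 (not_not.1 fun h => b.2 ((mem_pr hx).2 h)),
    fun f => ?_, fun {a b} h => ⟨1, ?_⟩⟩
  · obtain ⟨a, ha, b, hb, h1, h2⟩ := St_loc hU hx f.2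
    refine ⟨⟨⟨a, ha⟩, ⟨⟨b, hb⟩, fun h => (mem_pr hx).1 h h1⟩⟩, Subtype.ext ?_⟩
    change (f : KK X) * b = a
    rw [h2, div_mul_cancel₀ _ h1.1]
  · have : (a : KK X) = b := congrArg (fun t : St x => (t : KK X)) h
    rw [Subtype.ext this]

theorem Sec_frac {U : X.Opens} (hU : IsAffineOpen U) {x : X} (hx : x ∈ U) (f : KK X) :
    ∃ a ∈ Sec U, ∃ b ∈ Sec U, b ≠ 0 ∧ f = a / b := by
  obtain ⟨p, q, hq, rfl⟩ := IsFractionRing.div_surjective (A := X.presheaf.stalk x) f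
  have hq' : algebraMap _ (KK X) q ≠ 0 :=
    IsFractionRing.to_map_ne_zero_of_mem_nonZeroDivisors hq
  obtain ⟨a, ha, b, hb, h1, h2⟩ := St_loc hU hx (mem_St.2 ⟨p, rfl⟩)
  obtain ⟨c, hc, d, hd, h3, h4⟩ := St_loc hU hx (mem_St.2 ⟨q, rfl⟩)
  have hc0 : c ≠ 0 := fun h => hq' (by rw [h4, h, zero_div])
  refine ⟨a * d, mul_mem ha hd, b * c, mul_mem hb hc, mul_ne_zero h1.1 hc0, ?_⟩
  rw [h2, h4, div_div_div_eq]

/-- Every prime ideal of `Sec U` comes from a point. -/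
theorem exists_pr {U : X.Opens} (hU : IsAffineOpen U) {x₀ : X} (hx₀ : x₀ ∈ U)
    (𝔭 : Ideal (Sec U)) [𝔭.IsPrime] : ∃ (x : X) (hx : x ∈ U), pr hx = 𝔭 := by
  obtain ⟨x, hx, e⟩ := exists_point hU ⟨𝔭.comap (secEquiv hU hx₀), inferInstance⟩
  refine ⟨x, hx, Ideal.ext fun f => ?_⟩
  obtain ⟨s, rfl⟩ := (secEquiv hU hx₀).surjective f
  rw [mem_pr, coe_secEquiv, toK_congr hx₀ hx, ← mem_primeIdealOf hU hx, e]
  rfl

theorem spec_of_pr_le {U : X.Opens} (hU : IsAffineOpen U) {x y : X} (hx : x ∈ U) (hy : y ∈ U)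
    (h : pr hx ≤ pr hy) : x ⤳ y := by
  have h1 : hU.primeIdealOf ⟨x, hx⟩ ≤ hU.primeIdealOf ⟨y, hy⟩ := by
    intro s hs
    rw [mem_primeIdealOf] at hs ⊢
    have := h ((mem_pr hx (f := ⟨_, toK_mem_Sec hx s⟩)).2 hs)
    rw [mem_pr] at this
    rwa [toK_congr hy hx]
  have h2 := ((PrimeSpectrum.le_iff_specializes _ _).1 h1).map hU.fromSpec.continuous
  rwa [hU.fromSpec_primeIdealOf, hU.fromSpec_primeIdealOf] at h2

theorem height_pr {U : X.Opens} (hU : IsAffineOpen U) {x : X} (hx : x ∈ U) :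
    (pr hx).height = coheight x := by
  let _ := algSecSt hx
  have := isLocalization_St hU hx
  have h1 := IsLocalization.AtPrime.ringKrullDim_eq_height (pr hx) (St x)
  rw [← ringKrullDim_eq_of_ringEquiv (stEquiv x).toRingEquiv, ringKrullDim_stalk_eq_coheight] at h1
  exact (WithBot.coe_eq_coe.1 h1).symm

omit [IsIntegral X] [Algebra ℂ Γ(X, ⊤)] in
/-- Prime divisors are incomparable. -/
theorem pd_eq_of_spec {z z' : PrimeDivisor X} (h : z'.1 ⤳ z.1) : z' = z := by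
  by_contra hne
  have hlt : z.1 < z'.1 := lt_of_le_not_ge h fun h' =>
    hne (Subtype.ext (h.antisymm h').eq)
  have := coheight_add_one_le hlt
  rw [z.2, z'.2] at this
  exact absurd this (by decide)

end Crest.Agent.R271.S1
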