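import Crest.Agent.R271.Defs

/-! # Row 271, block S1: pure commutative algebra -/

set_option autoImplicit false

open AlgebraicGeometry CategoryTheory Crest.AlgGeometry.Divisors Order Set

namespace Crest.Agent.R271.S1

/-- Recipe: make `D`, `R` algebras over `P = MvPolynomial (Fin n) ℂ` (`RingHom.toAlgebra`, towers); `D` is étale over `P`, `R` is formally
étale over `D` (`Algebra.FormallyEtale.of_isLocalization`), so over `P` (`Algebra.FormallyEtale.comp`);
`KaehlerDifferential.tensorKaehlerEquivOfFormallyEtale ℂ P R` (or `KaehlerDifferential.isBaseChange_of_formallyEtale`) and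
`KaehlerDifferential.mvPolynomialBasis` (`Module.Basis.baseChange` / `IsBaseChange.basis`), `KaehlerDifferential.map_D`. -/
theorem exists_basis_of_etale {n : ℕ} {D : Type} [CommRing D] [Algebra ℂ D] (ζ : Fin n → D)
    (h : (MvPolynomial.aeval ζ : MvPolynomial (Fin n) ℂ →ₐ[ℂ] D).toRingHom.Etale)
    (M : Submonoid D) (R : Type) [CommRing R] [Algebra ℂ R] [Algebra D R] [IsScalarTower ℂ D R]
    [IsLocalization M R] :
    ∃ b : Module.Basis (Fin n) R (Ω[R⁄ℂ]), ∀ i, b i = KaehlerDifferential.D ℂ R (algebraMap D R (ζ i)) := by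
  set P := MvPolynomial (Fin n) ℂ
  letI : Algebra P D := (MvPolynomial.aeval ζ : P →ₐ[ℂ] D).toRingHom.toAlgebra
  letI : Algebra P R := ((algebraMap D R).comp (algebraMap P D)).toAlgebra
  haveI : IsScalarTower P D R := IsScalarTower.of_algebraMap_eq fun _ => rfl
  haveI : IsScalarTower ℂ P D :=
    IsScalarTower.of_algebraMap_eq fun c => ((MvPolynomial.aeval ζ : P →ₐ[ℂ] D).commutes c).symm
  haveI : IsScalarTower ℂ P R := IsScalarTower.of_algebraMap_eq fun c => by
    rw [IsScalarTower.algebraMap_apply ℂ D R, IsScalarTower.algebraMap_apply ℂ P D]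
    rfl
  haveI : Algebra.Etale P D := h
  haveI : Algebra.FormallyEtale D R := Algebra.FormallyEtale.of_isLocalization M
  haveI : Algebra.FormallyEtale P R := Algebra.FormallyEtale.comp P D R
  refine ⟨((KaehlerDifferential.mvPolynomialBasis ℂ (Fin n)).baseChange R).map
    (KaehlerDifferential.tensorKaehlerEquivOfFormallyEtale ℂ P R), fun i => ?_⟩
  have e : algebraMap D R (ζ i) = algebraMap P R (MvPolynomial.X i) := by
    change _ = algebraMap D R (MvPolynomial.aeval ζ (MvPolynomial.X i))
    rw [MvPolynomial.aeval_X]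
  rw [Module.Basis.map_apply, Module.Basis.baseChange_apply, KaehlerDifferential.mvPolynomialBasis_apply, e,
    ← KaehlerDifferential.tensorKaehlerEquivOfFormallyEtale_symm_D_algebraMap, LinearEquiv.apply_symm_apply]

/-- Recipe: `≤`: each `d (ζ i)` is in the image.  `≥`: for `f ∈ R`, `d f = ∑ c i • d (ζ i)` in `Ω[R⁄ℂ]`; apply
`KaehlerDifferential.map ℂ ℂ R K` (`R`-linear, `map_D`). -/
theorem span_D_eq {n : ℕ} {K : Type} [Field K] [Algebra ℂ K] (R : Subalgebra ℂ K) (ζ : Fin n → R)
    (h : Submodule.span R (range fun i => KaehlerDifferential.D ℂ R (ζ i)) = ⊤) :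
    Submodule.span R (range fun i => KaehlerDifferential.D ℂ K (ζ i : K)) =
      Submodule.span R (KaehlerDifferential.D ℂ K '' R) := by
  refine le_antisymm (Submodule.span_mono ?_) (Submodule.span_le.2 ?_)
  · rintro _ ⟨i, rfl⟩
    exact ⟨_, (ζ i).2, rfl⟩
  · rintro _ ⟨f, hf, rfl⟩
    have h1 : KaehlerDifferential.D ℂ R ⟨f, hf⟩ ∈
        Submodule.span R (range fun i => KaehlerDifferential.D ℂ R (ζ i)) := h ▸ Submodule.mem_top
    have h2 := Submodule.mem_map_of_mem (f := KaehlerDifferential.map ℂ ℂ R K) h1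
    rw [Submodule.map_span, ← range_comp, KaehlerDifferential.map_D] at h2
    have e : (KaehlerDifferential.map ℂ ℂ R K ∘ fun i => KaehlerDifferential.D ℂ R (ζ i)) =
        fun i => KaehlerDifferential.D ℂ K (ζ i : K) := funext fun i => KaehlerDifferential.map_D ℂ ℂ R K (ζ i)
    rw [e] at h2
    exact h2

end Crest.Agent.R271.S1
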