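import Crest.Agent.R271.Al.Tay

/-! # Row 271, block S1: pure commutative algebra -/

set_option autoImplicit false

open AlgebraicGeometry CategoryTheory Crest.AlgGeometry.Divisors Order Set

namespace Crest.Agent.R271.S1

/-- Local parameters.  `R` is the local ring at a point `ev`, and a localisation of both `C` and `D`; `D` is étale with coordinates `ζ`.
Recipe: `ζ i - ev (ζ i) = y i / q i` with `y i, q i ∈ C`, `ev (q i) ≠ 0`.  For `a ∈ C` with `ev a = 0` write `a = a' / b'` over `D`; `stTay` for `D`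
with the point `ev ∘ inclusion` and exponent `1` (order `≥ 1` iff the constant coefficient vanishes:
`MvPowerSeries.one_le_order_iff_constCoeff_eq_zero`-like, or `MvPowerSeries.le_order`) gives `h a' = ∑ c i (ζ i - ev (ζ i))`, `ev h ≠ 0`,
so `a = ∑ r i * y i` with `r i = c i / (h b' q i) ∈ R` (`hR`); write `r i = p i / s i` over `C` and take `b = ∏ s i`. -/
theorem reg_of_etale {n : ℕ} {K : Type} [Field K] [Algebra ℂ K] (R C D : Subalgebra ℂ K)
    (hC : C ≤ R) (hD : D ≤ R) (ev : R →ₐ[ℂ] ℂ) (hR : ∀ f : R, ev f ≠ 0 → (f : K)⁻¹ ∈ R)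
    (lC : ∀ f ∈ R, ∃ a ∈ C, ∃ b : C, ev (Subalgebra.inclusion hC b) ≠ 0 ∧ f = a / b)
    (lD : ∀ f ∈ R, ∃ a ∈ D, ∃ b : D, ev (Subalgebra.inclusion hD b) ≠ 0 ∧ f = a / b)
    (ζ : Fin n → D)
    (h : (MvPolynomial.aeval ζ : MvPolynomial (Fin n) ℂ →ₐ[ℂ] D).toRingHom.Etale) :
    ∃ y : Fin n → C, (∀ i, ev (Subalgebra.inclusion hC (y i)) = 0) ∧
      ∀ a : C, ev (Subalgebra.inclusion hC a) = 0 →
        ∃ b : C, ev (Subalgebra.inclusion hC b) ≠ 0 ∧ b * a ∈ Ideal.span (range y) := by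
  classical
  obtain ⟨t, ht, hle⟩ := tay_loc h (ev.comp (Subalgebra.inclusion hD))
  set w : Fin n → D := fun i => ζ i - algebraMap ℂ D ((ev.comp (Subalgebra.inclusion hD)) (ζ i)) with hw
  have hw0 : ∀ i, ev (Subalgebra.inclusion hD (w i)) = 0 := fun i => by simp [hw]
  have ne0 : ∀ f : R, ev f ≠ 0 → (f : K) ≠ 0 := fun f hf h0 => hf (by
    rw [show f = 0 from Subtype.ext h0, map_zero])
  choose y hy q hq hyq using fun i => lC (w i) (hD (w i).2)
  have hq0 : ∀ i, (q i : K) ≠ 0 := fun i => ne0 _ (hq i)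
  refine ⟨fun i => ⟨y i, hy i⟩, fun i => ?_, fun a ha => ?_⟩
  · have e : Subalgebra.inclusion hC ⟨y i, hy i⟩ =
        Subalgebra.inclusion hD (w i) * Subalgebra.inclusion hC (q i) :=
      Subtype.ext ((div_eq_iff (hq0 i)).1 (hyq i).symm)
    rw [e, map_mul, hw0, zero_mul]
  obtain ⟨a', ha', b', hb', hab⟩ := lD a (hC a.2)
  have hb0 : (b' : K) ≠ 0 := ne0 _ hb'
  have ht0 : (t : K) ≠ 0 := ne0 _ ht
  have hk : (⟨a', ha'⟩ : D) ∈ RingHom.ker (ev.comp (Subalgebra.inclusion hD)) := by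
    have e : Subalgebra.inclusion hD ⟨a', ha'⟩ = Subalgebra.inclusion hC a * Subalgebra.inclusion hD b' :=
      Subtype.ext ((div_eq_iff hb0).1 hab.symm)
    change ev (Subalgebra.inclusion hD ⟨a', ha'⟩) = 0
    rw [e, map_mul, ha, zero_mul]
  obtain ⟨c, hc⟩ := Ideal.mem_span_range_iff_exists_fun.1
    (hle (Ideal.mul_mem_mul (Ideal.mem_span_singleton_self t) hk))
  have hc' := congrArg (Subtype.val : D → K) hc
  simp only [AddSubmonoidClass.coe_finsetSum, MulMemClass.coe_mul] at hc'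
  have hr : ∀ i, (c i : K) * (t : K)⁻¹ * (b' : K)⁻¹ * (q i : K)⁻¹ ∈ R := fun i =>
    mul_mem (mul_mem (mul_mem (hD (c i).2) (hR _ ht)) (hR _ hb')) (hR _ (hq i))
  choose p hp s hs hps using fun i => lC _ (hr i)
  have hs0 : ∀ i, (s i : K) ≠ 0 := fun i => ne0 _ (hs i)
  refine ⟨∏ i, s i, by simp only [map_prod]; exact Finset.prod_ne_zero_iff.2 fun i _ => hs i, ?_⟩
  refine Ideal.mem_span_range_iff_exists_fun.2
    ⟨fun i => (∏ j ∈ Finset.univ.erase i, s j) * ⟨p i, hp i⟩, Subtype.ext ?_⟩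
  have e1 : (a : K) = ∑ i, p i / s i * y i := by
    have : (a : K) = (t : K)⁻¹ * (b' : K)⁻¹ * (t * a') := by
      rw [hab]
      field_simp
    rw [this, ← hc', Finset.mul_sum]
    refine Finset.sum_congr rfl fun i _ => ?_
    rw [← hps i]
    change _ * (_ * (w i : K)) = _
    rw [hyq i, div_eq_mul_inv]
    ring
  simp only [AddSubmonoidClass.coe_finsetSum, MulMemClass.coe_mul, SubmonoidClass.coe_finsetProd]
  rw [e1, Finset.mul_sum]
  refine Finset.sum_congr rfl fun i _ => ?_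
  rw [← Finset.mul_prod_erase Finset.univ (fun j => (s j : K)) (Finset.mem_univ i)]
  have := hs0 i
  field_simp

end Crest.Agent.R271.S1
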