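import Crest.Agent.R271.Defs

/-! # Row 271, block S1: pure commutative algebra -/

set_option autoImplicit false

open AlgebraicGeometry CategoryTheory Crest.AlgGeometry.Divisors Order Set

namespace Crest.Agent.R271.S1

/-- Recipe: `P = MvPolynomial (Fin n) ℂ → D` is étale, so flat, so injective (`P` is a domain, `D` is nontrivial: a nonzero `p` acts
injectively on `D`); so `ζ` is algebraically independent in `K`.  `K` is algebraic over `P`: `D` is unramified and of finite type, hence
quasi-finite over `P`; or: `Frac P → K` is formally unramified and essentially of finite type, so separable algebraic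
(`Algebra.FormallyUnramified.isSeparable`).  So `ζ` is a transcendence basis (`IsTranscendenceBasis.cardinalMk_eq_trdeg`,
`AlgebraicIndependent.isTranscendenceBasis_iff_isAlgebraic`).  (See `Al/Tay.lean`, `Al/Gen.lean` for similar steps.) -/
theorem trdeg_of_etale {n : ℕ} {K : Type} [Field K] [Algebra ℂ K] (D : Subalgebra ℂ K)
    (hD : ∀ f : K, ∃ a ∈ D, ∃ b ∈ D, b ≠ 0 ∧ f = a / b) (ζ : Fin n → D)
    (h : (MvPolynomial.aeval ζ : MvPolynomial (Fin n) ℂ →ₐ[ℂ] D).toRingHom.Etale) :
    Algebra.trdeg ℂ K = n := by
  set P := MvPolynomial (Fin n) ℂ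
  letI : Algebra P D := (MvPolynomial.aeval ζ : P →ₐ[ℂ] D).toRingHom.toAlgebra
  letI : Algebra P K := ((algebraMap D K).comp (algebraMap P D)).toAlgebra
  haveI : IsScalarTower P D K := IsScalarTower.of_algebraMap_eq fun _ => rfl
  haveI : IsScalarTower ℂ P D :=
    IsScalarTower.of_algebraMap_eq fun c => ((MvPolynomial.aeval ζ : P →ₐ[ℂ] D).commutes c).symm
  haveI : IsScalarTower ℂ P K := IsScalarTower.of_algebraMap_eq fun c => by
    rw [IsScalarTower.algebraMap_apply ℂ D K, IsScalarTower.algebraMap_apply ℂ P D]
    rfl
  haveI : Algebra.Etale P D := h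
  haveI : FaithfulSMul P D := inferInstance
  haveI : FaithfulSMul P K := (faithfulSMul_iff_algebraMap_injective P K).2
    (Subtype.val_injective.comp (FaithfulSMul.algebraMap_injective P D))
  haveI : IsFractionRing D K := IsFractionRing.of_field D K fun z => by
    obtain ⟨a, ha, b, hb, -, rfl⟩ := hD z
    exact ⟨⟨a, ha⟩, ⟨b, hb⟩, rfl⟩
  haveI : Algebra.FormallyUnramified D K := Algebra.FormallyUnramified.of_isLocalization (nonZeroDivisors D)
  haveI : Algebra.FormallyUnramified P K := Algebra.FormallyUnramified.comp P D K
  haveI : Algebra.EssFiniteType D K := Algebra.EssFiniteType.of_isLocalization K (nonZeroDivisors D)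
  haveI : Algebra.EssFiniteType P K := Algebra.EssFiniteType.comp P D K
  letI : Algebra (FractionRing P) K := FractionRing.liftAlgebra P K
  haveI : IsScalarTower P (FractionRing P) K := FractionRing.isScalarTower_liftAlgebra P K
  haveI : Algebra.FormallyUnramified (FractionRing P) K :=
    Algebra.FormallyUnramified.of_restrictScalars P (FractionRing P) K
  haveI : Algebra.EssFiniteType (FractionRing P) K := Algebra.EssFiniteType.of_comp P (FractionRing P) K
  haveI := Algebra.FormallyUnramified.isSeparable (FractionRing P) K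
  haveI : Algebra.IsAlgebraic P K :=
    ⟨fun x => (IsFractionRing.isAlgebraic_iff P (FractionRing P) K).2 (Algebra.IsAlgebraic.isAlgebraic x)⟩
  rw [← trdeg_add_eq ℂ P (A := K), trdeg_eq_zero (R := P) (A := K), MvPolynomial.trdeg_of_isDomain]
  simp

end Crest.Agent.R271.S1
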