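import Crest.Agent.R271.Defs

/-! # Row 271, block S1: pure commutative algebra -/

set_option autoImplicit false

open AlgebraicGeometry CategoryTheory Crest.AlgGeometry.Divisors Order Set

namespace Crest.Agent.R271.S1

/-- Recipe: pick a maximal `𝔪 ≥ 𝔭`; `R` is a localisation of `Localization.AtPrime 𝔪`
(`IsLocalization.localizationAlgebraOfSubmonoidLe`, `IsLocalization.isLocalization_of_submonoid_le`), and a localisation of a factorial
domain is factorial (`UniqueFactorizationMonoid.of_isLocalization`). -/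
theorem ufd_of_loc {D : Type} [CommRing D] [IsDomain D]
    (h : ∀ (𝔪 : Ideal D) [𝔪.IsMaximal], UniqueFactorizationMonoid (Localization.AtPrime 𝔪))
    (𝔭 : Ideal D) [𝔭.IsPrime] (R : Type) [CommRing R] [IsDomain R] [Algebra D R]
    [IsLocalization.AtPrime R 𝔭] : UniqueFactorizationMonoid R := by
  obtain ⟨𝔪, h𝔪, hle⟩ := Ideal.exists_le_maximal 𝔭 (Ideal.IsPrime.ne_top ‹_›)
  have hc : 𝔪.primeCompl ≤ 𝔭.primeCompl := fun x hx h => hx (hle h)
  letI := IsLocalization.localizationAlgebraOfSubmonoidLe (Localization.AtPrime 𝔪) R _ _ hc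
  haveI := IsLocalization.localization_isScalarTower_of_submonoid_le (Localization.AtPrime 𝔪) R _ _ hc
  haveI := IsLocalization.isLocalization_of_submonoid_le (Localization.AtPrime 𝔪) R _ _ hc
  haveI := h 𝔪
  exact UniqueFactorizationMonoid.of_isLocalization
    (𝔭.primeCompl.map (algebraMap D (Localization.AtPrime 𝔪))) R

/-- Nullstellensatz.  Recipe: `D ⧸ 𝔪` is a field of finite type over `ℂ`, so finite (`finite_of_finite_type_of_isJacobsonRing`), so `ℂ`
(`IsAlgClosed.algebraMap_bijective_of_isIntegral`); this gives `e : D →ₐ[ℂ] ℂ` with kernel `𝔪`; extend by `IsLocalization.liftAlgHom`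
(or `IsLocalization.lift`); `IsLocalization.AtPrime.isUnit_mk'_iff`. -/
theorem exists_ev {D : Type} [CommRing D] [Algebra ℂ D] [Algebra.FiniteType ℂ D] (𝔪 : Ideal D)
    [𝔪.IsMaximal] (R : Type) [CommRing R] [Algebra ℂ R] [Algebra D R] [IsScalarTower ℂ D R]
    [IsLocalization.AtPrime R 𝔪] : ∃ ev : R →ₐ[ℂ] ℂ, ∀ f, ev f ≠ 0 ↔ IsUnit f := by
  letI := Ideal.Quotient.field 𝔪
  haveI : Module.Finite ℂ (D ⧸ 𝔪) := finite_of_finite_type_of_isJacobsonRing ℂ _
  have hb : Function.Bijective (algebraMap ℂ (D ⧸ 𝔪)) := IsAlgClosed.algebraMap_bijective_of_isIntegral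
  let e0 := (AlgEquiv.ofBijective (Algebra.ofId ℂ (D ⧸ 𝔪)) hb).symm
  let e : D →ₐ[ℂ] ℂ := e0.toAlgHom.comp (Ideal.Quotient.mkₐ ℂ 𝔪)
  have he : ∀ a, e a = 0 ↔ a ∈ 𝔪 := fun a => by
    change e0 (Ideal.Quotient.mk 𝔪 a) = 0 ↔ _
    rw [map_eq_zero_iff _ e0.injective, Ideal.Quotient.eq_zero_iff_mem]
  have hu : ∀ y : 𝔪.primeCompl, IsUnit (e y) := fun y => Ne.isUnit ((he y).not.2 y.2)
  refine ⟨IsLocalization.liftAlgHom (M := 𝔪.primeCompl) hu, fun f => ⟨fun hf => ?_, fun hf => (hf.map _).ne_zero⟩⟩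
  obtain ⟨⟨a, s⟩, rfl⟩ := IsLocalization.mk'_surjective 𝔪.primeCompl f
  rw [IsLocalization.AtPrime.isUnit_mk'_iff]
  intro ha
  refine hf ?_
  rw [IsLocalization.liftAlgHom_apply, IsLocalization.lift_mk'_spec]
  simpa using (he a).2 ha

end Crest.Agent.R271.S1
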