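import Crest.Agent.R271.S1.Hart

/-! # Row 271, block S1: finite supports and the Cartier data -/

set_option autoImplicit false

open AlgebraicGeometry CategoryTheory Crest.AlgGeometry.Divisors Order Set

namespace Crest.Agent.R271.S1

variable {X : Scheme.{0}} [IsIntegral X] [IsLocallyNoetherian X] [Algebra ℂ Γ(X, ⊤)]

/-- Recipe: `f = a / b` over `Sec U` (`Sec_frac`).  If `ord z f < 0` then `¬ Un z b` (else `f ∈ St z`), so `b ∈ pr hz`, which has height one
(`height_pr`), so `pr hz` is a minimal prime of `span {b}` (`b ≠ 0`, `Sec U` a domain); `Ideal.finite_minimalPrimes_of_isNoetherianRing`; and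
`z ↦ pr hz` is injective (`spec_of_pr_le`, `pd_eq_of_spec`). -/
theorem finite_poles_affine (H : ∀ x : X, UniqueFactorizationMonoid (St x)) {U : X.Opens}
    (hU : IsAffineOpen U) [IsNoetherianRing (Sec U)] {f : KK X} (hf : f ≠ 0) :
    {z : PrimeDivisor X | z.1 ∈ U ∧ ord z.1 f < 0}.Finite := by
  rcases (U : Set X).eq_empty_or_nonempty with h | ⟨x₀, hx₀⟩
  · exact finite_empty.subset fun z hz => (h ▸ hz.1 : z.1 ∈ (∅ : Set X)).elim
  obtain ⟨a, ha, b, hb, hb0, rfl⟩ := Sec_frac hU hx₀ f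
  let b' : Sec U := ⟨b, hb⟩
  have hb' : b' ≠ 0 := fun h => hb0 (congrArg Subtype.val h)
  have hfin := (Ideal.span {b'}).finite_minimalPrimes_of_isNoetherianRing
  classical
  let φ : PrimeDivisor X → Ideal (Sec U) := fun z => if h : z.1 ∈ U then pr h else ⊥
  refine Finite.of_finite_image (f := φ) (hfin.subset ?_) ?_
  · rintro _ ⟨z, ⟨hz, hlt⟩, rfl⟩
    simp only [φ, dif_pos hz]
    have hmem : b' ∈ pr hz := (mem_pr hz).2 fun hun => by
      have h1 : a / b ∈ St z.1 := by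
        rw [div_eq_mul_inv]
        exact mul_mem (Sec_le hz ha) hun.2.2
      rcases (mem_St_iff_ord z (H _) _).1 h1 with h2 | h2
      · exact hf h2
      · exact absurd hlt (not_lt.2 h2)
    refine ⟨⟨inferInstance, (Ideal.span_singleton_le_iff_mem _).2 hmem⟩, fun q hq hle => ?_⟩
    have := hq.1
    by_contra hne
    have h1 : q < pr hz := lt_of_le_not_ge hle hne
    have h2 : (⊥ : Ideal (Sec U)) < q := bot_lt_iff_ne_bot.2 fun h => hb'
      (by simpa [h] using hq.2 (Ideal.mem_span_singleton_self b'))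
    have h3 := Ideal.height_add_one_le_of_lt_of_isPrime h1
    have h4 := Ideal.height_add_one_le_of_lt_of_isPrime h2
    rw [height_pr hU hz, z.2] at h3
    have h5 : (1 : ℕ∞) + 1 ≤ 1 := (add_le_add_left (le_add_self.trans h4) 1).trans h3
    exact absurd h5 (by decide)
  · rintro z ⟨hz, -⟩ z' ⟨hz', -⟩ h
    simp only [φ, dif_pos hz, dif_pos hz'] at h
    exact pd_eq_of_spec (spec_of_pr_le hU hz hz' h.le)

/-- Recipe: let `S` be the set of `g : Sec U` of the form `h ^ k / u` with `h = 0 ∨ 0 ≤ ord z h + L z` for all prime divisors `z ∈ U`.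
Claim `Ideal.span S = ⊤` (then `Submodule.mem_span_set'` for `1`).  Otherwise take a maximal `𝔪 ⊇ S`, `𝔪 = pr hx` (`exists_pr`), and a local
equation `h₀` at `x` (`exists_local_eq`).  `B = {z ∈ U | ord z h₀ + L z < 0}` is finite (`finite_poles_affine`, `L.support`); for `z ∈ B`, `¬ z ⤳ x`, so
there is `b z ∈ pr hz \ pr hx` (`spec_of_pr_le`): `Un x (b z)`, `ord z (b z) ≥ 1` (or `b z = 0`, excluded by `Un x`).  Put
`h = h₀ * ∏ z ∈ B, b z ^ (-(ord z h₀ + L z)).toNat`.  Then `0 ≤ ord z h + L z` on `U`, `g = h ^ k / u ∈ Sec U` (`hartogs`, `mem_St_iff_ord`, `hu`), and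
`ord z g = 0` for `z ⤳ x` (`Un.of_spec`, `Un_iff_ord`), so `g⁻¹ ∈ St x` (`hartogs`), `Un x g`, contradicting `g ∈ 𝔪`. -/
theorem cartier_data (H : ∀ x : X, UniqueFactorizationMonoid (St x)) {U : X.Opens}
    (hU : IsAffineOpen U) {x₀ : X} (hx₀ : x₀ ∈ U) [IsNoetherianRing (Sec U)] (L : WeilDiv X) (k : ℕ)
    {u : KK X} (hu0 : u ≠ 0) (hu : ∀ z : PrimeDivisor X, z.1 ∈ U → ord z.1 u + k * L z = 0) :
    ∃ (q : ℕ) (h c : Fin q → KK X), (∀ a, c a ∈ Sec U) ∧
      (∀ a, ∀ z : PrimeDivisor X, z.1 ∈ U → h a = 0 ∨ 0 ≤ ord z.1 (h a) + L z) ∧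
      ∑ a, c a * (h a ^ k / u) = 1 := by
  classical
  let P : KK X → Prop := fun h => ∀ z : PrimeDivisor X, z.1 ∈ U → h = 0 ∨ 0 ≤ ord z.1 h + L z
  let S : Set (Sec U) := {g | ∃ h, P h ∧ (g : KK X) = h ^ k / u}
  have hS : Ideal.span S = ⊤ := by
    by_contra hS
    obtain ⟨𝔪, h𝔪, hle⟩ := Ideal.exists_le_maximal _ hS
    obtain ⟨x, hx, rfl⟩ := exists_pr hU hx₀ 𝔪
    obtain ⟨h₀, h00, hh₀⟩ := exists_local_eq H L x
    have hB : {z : PrimeDivisor X | z.1 ∈ U ∧ ord z.1 h₀ + L z < 0}.Finite := by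
      refine ((finite_poles_affine H hU h00).union L.support.finite_toSet).subset fun z hz => ?_
      by_cases h : L z = 0
      · exact Or.inl ⟨hz.1, by simpa [h] using hz.2⟩
      · exact Or.inr (by simpa using h)
    have hb : ∀ z ∈ hB.toFinset, ∃ b ∈ Sec U, Un x b ∧ 1 ≤ ord z.1 b := by
      intro z hz
      obtain ⟨hz, hlt⟩ := hB.mem_toFinset.1 hz
      have h1 : ¬ pr hz ≤ pr hx := fun h => hlt.ne (hh₀ z (spec_of_pr_le hU hz hx h))
      obtain ⟨b, h2, h3⟩ := SetLike.not_le_iff_exists.1 h1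
      rw [mem_pr] at h2 h3
      have h4 : Un x (b : KK X) := not_not.1 h3
      have h5 := ((mem_St_iff_ord z (H _) _).1 (Sec_le hz b.2)).resolve_left h4.1
      have h6 : ord z.1 (b : KK X) ≠ 0 := fun h => h2 ((Un_iff_ord z (H _) _).2 ⟨h4.1, h⟩)
      exact ⟨b, b.2, h4, by omega⟩
    choose! b hbU hbx hbo using hb
    let e : PrimeDivisor X → ℕ := fun z => (-(ord z.1 h₀ + L z)).toNat
    let w : KK X := ∏ z ∈ hB.toFinset, b z ^ e z
    have hw0 : w ≠ 0 := Finset.prod_ne_zero_iff.2 fun z hz => pow_ne_zero _ (hbx z hz).1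
    have hwx : Un x w := Finset.prod_induction _ (Un x) (fun _ _ => Un.mul) (Un.one x)
      fun z hz => (hbx z hz).pow _
    have hh0 : h₀ * w ≠ 0 := mul_ne_zero h00 hw0
    have hP : ∀ z : PrimeDivisor X, z.1 ∈ U → 0 ≤ ord z.1 (h₀ * w) + L z := by
      intro z hz
      have h1 : ∀ z' ∈ hB.toFinset, 0 ≤ ord z.1 (b z' ^ e z') := fun z' hz' =>
        ((mem_St_iff_ord z (H _) _).1 (pow_mem (Sec_le hz (hbU z' hz')) _)).resolve_left
          (pow_ne_zero _ (hbx z' hz').1)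
      rw [ord_mul _ h00 hw0, ord_prod _ _ fun z' hz' => pow_ne_zero _ (hbx z' hz').1]
      by_cases h : ord z.1 h₀ + L z < 0
      · have hzB := hB.mem_toFinset.2 ⟨hz, h⟩
        have h2 := Finset.single_le_sum h1 hzB
        rw [ord_pow _ (hbx z hzB).1] at h2
        have h3 : (e z : ℤ) = -(ord z.1 h₀ + L z) := Int.toNat_of_nonneg (by omega)
        have h4 := hbo z hzB
        nlinarith
      · have h2 := Finset.sum_nonneg h1
        omega
    have hg0 : (h₀ * w) ^ k / u ≠ 0 := div_ne_zero (pow_ne_zero _ hh0) hu0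
    have hord : ∀ z : PrimeDivisor X, z.1 ∈ U →
        ord z.1 ((h₀ * w) ^ k / u) = k * (ord z.1 (h₀ * w) + L z) := by
      intro z hz
      rw [ord_div _ (pow_ne_zero _ hh0) hu0, ord_pow _ hh0]
      linear_combination -hu z hz
    have hgU : (h₀ * w) ^ k / u ∈ Sec U := mem_Sec.2 fun y hy => hartogs y (H y) fun z hz => by
      have hz' : z.1 ∈ U := hz.mem_open U.isOpen hy
      rw [mem_St_iff_ord z (H _), hord z hz']
      exact Or.inr (mul_nonneg (Nat.cast_nonneg _) (hP z hz'))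
    have hgx : Un x ((h₀ * w) ^ k / u) := by
      refine ⟨hg0, Sec_le hx hgU, hartogs x (H x) fun z hz => ?_⟩
      rw [mem_St_iff_ord z (H _), ord_inv _ hg0, hord z (hz.mem_open U.isOpen hx),
        ord_mul _ h00 hw0, ((Un_iff_ord z (H _) _).1 (hwx.of_spec hz)).2, add_zero, hh₀ z hz]
      simp
    exact (mem_pr hx (f := ⟨_, hgU⟩)).1
      (hle (Ideal.subset_span ⟨h₀ * w, fun z hz => Or.inr (hP z hz), rfl⟩)) hgx
  obtain ⟨q, c, g, hsum⟩ := Submodule.mem_span_set'.1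
    (show (1 : Sec U) ∈ Ideal.span S from hS ▸ Submodule.mem_top)
  choose h hP hg using fun a => (g a).2
  refine ⟨q, h, fun a => c a, fun a => (c a).2, hP, ?_⟩
  have := congrArg (Sec U).val hsum
  rw [map_sum, map_one] at this
  rw [← this]
  exact Finset.sum_congr rfl fun a _ => by rw [← hg a]; rfl

end Crest.Agent.R271.S1
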