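import Crest.Agent.R271.S1.Aff

/-! # Row 271, block S1: étale charts, finite generation, compactness -/

set_option autoImplicit false

open AlgebraicGeometry CategoryTheory Crest.AlgGeometry.Divisors Order Set

namespace Crest.Agent.R271.S1

variable {X : Scheme.{0}} [IsIntegral X] [Algebra ℂ Γ(X, ⊤)]

omit [IsIntegral X] in
theorem chart_appTop : (Scheme.ΓSpecIso (CommRingCat.of ℂ)).inv ≫ (structureMorphism ℂ X).appTop =
    CommRingCat.ofHom (algebraMap ℂ Γ(X, ⊤)) := by
  rw [structureMorphism, Scheme.Hom.comp_appTop, ← Scheme.ΓSpecIso_inv_naturality_assoc,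
    Scheme.toSpecΓ_appTop]
  simp

omit [IsIntegral X] in
theorem chart_appLE {U : X.Opens} (e : U ≤ structureMorphism ℂ X ⁻¹ᵁ ⊤) (c : ℂ) :
    ((structureMorphism ℂ X).appLE ⊤ U e).hom ((Scheme.ΓSpecIso (CommRingCat.of ℂ)).inv.hom c) =
      X.presheaf.map (homOfLE (le_top : U ≤ ⊤)).op (algebraMap ℂ Γ(X, ⊤) c) := by
  have h := congrArg (fun φ => φ.hom c) (chart_appTop (X := X))
  simp only [CommRingCat.hom_comp, RingHom.comp_apply, CommRingCat.hom_ofHom] at h
  rw [← h]
  rfl

theorem chart_inv_bij : Function.Bijective (Scheme.ΓSpecIso (CommRingCat.of ℂ)).inv.hom :=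
  (Scheme.ΓSpecIso (CommRingCat.of ℂ)).symm.commRingCatIsoToRingEquiv.bijective

/-- Recipe: `hX.2.2 : SmoothOfRelativeDimension n (structureMorphism ℂ X)`;
`SmoothOfRelativeDimension.exists_isStandardSmoothOfRelativeDimension x` gives affine `U ⊆ Spec ℂ`, affine `V ∋ x`,
`e : V ≤ f ⁻¹ᵁ U` with `(f.appLE U V e).hom` standard smooth of relative dimension `n`; `U = ⊤` (`Spec ℂ` is one point and
`f x ∈ U`).  `RingHom.IsStandardSmoothOfRelativeDimension.exists_etale_mvPolynomial` gives an étale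
`g : MvPolynomial (Fin n) Γ(Spec ℂ, ⊤) →+* Γ(X, V)` with `g ∘ C = appLE`.  Put `ζ i = secEquiv hV hx (g (X i))`;
`aeval ζ = secEquiv ∘ g ∘ MvPolynomial.map (ΓSpecIso ℂ).inv` (`MvPolynomial.ringHom_ext`, `secEquiv_algebraMap`), and
`RingHom.Etale` respects isomorphisms / compositions (`RingHom.Etale.respectsIso`, `.of_bijective`, `.comp`). -/
theorem exists_chart {n : ℕ} (hX : IsSmoothProperVariety ℂ X n) (x : X) :
    ∃ (V : X.Opens) (ζ : Fin n → Sec V), x ∈ V ∧ Chart n V ζ := by
  obtain ⟨U, hU, V, hV, hx, e, hf⟩ := hX.2.2.exists_isStandardSmoothOfRelativeDimension x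
  obtain rfl : U = ⊤ := by
    refine top_le_iff.1 fun y _ => ?_
    rw [Subsingleton.elim y (structureMorphism ℂ X x)]
    exact e hx
  obtain ⟨g, hg, het⟩ := hf.exists_etale_mvPolynomial
  refine ⟨V, fun i => secEquiv hV hx (g (MvPolynomial.X i)), hx, hV, ?_⟩
  have h1 : (MvPolynomial.map (σ := Fin n) (Scheme.ΓSpecIso (CommRingCat.of ℂ)).inv.hom).Etale :=
    RingHom.Etale.of_bijective ⟨MvPolynomial.map_injective _ chart_inv_bij.1,
      MvPolynomial.map_surjective _ chart_inv_bij.2⟩
  have h2 : (secEquiv hV hx).toRingHom.Etale := RingHom.Etale.of_bijective (secEquiv hV hx).bijective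
  have h3 := RingHom.Etale.stableUnderComposition _ _ (RingHom.Etale.stableUnderComposition _ _ h1 het) h2
  convert h3 using 1
  refine MvPolynomial.ringHom_ext (fun c => ?_) fun i => ?_
  · have h4 := RingHom.congr_fun hg ((Scheme.ΓSpecIso (CommRingCat.of ℂ)).inv.hom c)
    rw [chart_appLE, RingHom.comp_apply] at h4
    simp only [RingHom.comp_apply, MvPolynomial.map_C, h4]
    rw [← MvPolynomial.algebraMap_eq]
    exact (AlgHom.commutes _ c).trans (secEquiv_algebraMap hV hx c).symm
  · simp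

/-- Recipe: `IsProper ⇒ LocallyOfFiniteType`; `LocallyOfFiniteType.finiteType_appLE` (or `HasRingHomProperty.appLE`) with `⊤ ⊆ Spec ℂ`
and `U` gives `(f.appLE ⊤ U _).hom.FiniteType`; `algebraMap ℂ (Sec U) = secEquiv ∘ appLE ∘ (ΓSpecIso ℂ).inv`
(`secEquiv_algebraMap`), `RingHom.FiniteType.comp`, `.of_surjective`, `RingHom.finiteType_algebraMap`. -/
theorem Sec_finiteType {n : ℕ} (hX : IsSmoothProperVariety ℂ X n) {U : X.Opens}
    (hU : IsAffineOpen U) {x : X} (hx : x ∈ U) : Algebra.FiniteType ℂ (Sec U) := by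
  haveI := hX.2.1
  have h0 := (structureMorphism ℂ X).finiteType_appLE (U := ⊤) (isAffineOpen_top _) hU le_top
  have h1 := (RingHom.FiniteType.of_surjective (secEquiv hU hx).toRingHom (secEquiv hU hx).surjective).comp
    (h0.comp (RingHom.FiniteType.of_surjective _ chart_inv_bij.2))
  rw [← RingHom.finiteType_algebraMap]
  convert h1 using 1
  ext1 c
  exact (secEquiv_algebraMap hU hx c).symm.trans (congrArg (secEquiv hU hx) (chart_appLE le_top c).symm)

omit [IsIntegral X] in
/-- Recipe: proper ⇒ `QuasiCompact`, the target is affine (`compactSpace_iff_quasiCompact`, `QuasiCompact.compactSpace_of_compactSpace`,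
or preimage of `univ`). -/
theorem compactSpace {n : ℕ} (hX : IsSmoothProperVariety ℂ X n) : CompactSpace X := by
  haveI := hX.2.1
  exact QuasiCompact.compactSpace_of_compactSpace (structureMorphism ℂ X)

end Crest.Agent.R271.S1
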