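import Crest.Agent.R271.Defs

/-! # Row 271, block S1: local rings and rings of sections inside the function field -/

set_option autoImplicit false

open AlgebraicGeometry CategoryTheory Crest.AlgGeometry.Divisors Order

namespace Crest.Agent.R271.S1

/-- the function field (a type synonym, to keep instance search fast) -/
def KK (X : Scheme.{0}) [IsIntegral X] : Type := X.functionField

variable {X : Scheme.{0}} [IsIntegral X]

noncomputable scoped instance fieldK : Field (KK X) := inferInstanceAs (Field X.functionField)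

noncomputable scoped instance algStK (x : X) : Algebra (X.presheaf.stalk x) (KK X) :=
  inferInstanceAs (Algebra (X.presheaf.stalk x) X.functionField)

scoped instance fracStK (x : X) : IsFractionRing (X.presheaf.stalk x) (KK X) :=
  inferInstanceAs (IsFractionRing (X.presheaf.stalk x) X.functionField)

/-- a section over an open set containing the point `x`, as a rational function -/
noncomputable def toK {U : X.Opens} {x : X} (hx : x ∈ U) : Γ(X, U) →+* KK X :=
  (algebraMap (X.presheaf.stalk x) (KK X)).comp (X.presheaf.germ U x hx).hom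

theorem toK_eq {U : X.Opens} [Nonempty U] {x : X} (hx : x ∈ U) (s : Γ(X, U)) :
    toK hx s = X.germToFunctionField U s := X.algebraMap_germ_eq_germToFunctionField hx s

theorem toK_congr {U : X.Opens} {x y : X} (hx : x ∈ U) (hy : y ∈ U) : toK hx = toK hy := by
  have : Nonempty U := ⟨⟨x, hx⟩⟩
  ext s
  rw [toK_eq, toK_eq]

theorem toK_injective {U : X.Opens} {x : X} (hx : x ∈ U) : Function.Injective (toK hx) :=
  (IsFractionRing.injective (X.presheaf.stalk x) (KK X)).comp (germ_injective_of_isIntegral X x hx)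

/-- order of vanishing -/
noncomputable def ord [IsLocallyNoetherian X] (z : X) (f : KK X) : ℤ := Scheme.ord (X := X) f z

theorem ord_mul [IsLocallyNoetherian X] (z : X) {f g : KK X} (hf : f ≠ 0) (hg : g ≠ 0) :
    ord z (f * g) = ord z f + ord z g := Scheme.ord_mul (X := X) hf hg

variable [Algebra ℂ Γ(X, ⊤)]

noncomputable scoped instance algSt (x : X) : Algebra ℂ (X.presheaf.stalk x) := stalkAlgebra ℂ X x

noncomputable scoped instance algK : Algebra ℂ (KK X) := fnFieldAlgebra ℂ X

theorem algebraMap_K (x : X) (c : ℂ) :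
    algebraMap ℂ (KK X) c = toK (U := ⊤) (x := x) trivial (algebraMap ℂ Γ(X, ⊤) c) :=
  haveI : Nonempty (⊤ : X.Opens) := ⟨⟨x, trivial⟩⟩
  (toK_eq (U := ⊤) (x := x) trivial (algebraMap ℂ Γ(X, ⊤) c)).symm

scoped instance towerSt (x : X) : IsScalarTower ℂ (X.presheaf.stalk x) (KK X) :=
  IsScalarTower.of_algebraMap_eq fun c => algebraMap_K x c

/-- the local ring at `x`, inside the function field -/
noncomputable def St (x : X) : Subalgebra ℂ (KK X) :=
  (IsScalarTower.toAlgHom ℂ (X.presheaf.stalk x) (KK X)).range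

theorem mem_St {x : X} {f : KK X} :
    f ∈ St x ↔ ∃ a : X.presheaf.stalk x, algebraMap _ (KK X) a = f := Iff.rfl

theorem toK_mem {U : X.Opens} {x : X} (hx : x ∈ U) (s : Γ(X, U)) : toK hx s ∈ St x := ⟨_, rfl⟩

/-- the stalk is the local ring `St x` -/
noncomputable def stEquiv (x : X) : X.presheaf.stalk x ≃ₐ[ℂ] St x :=
  AlgEquiv.ofInjective _ (IsFractionRing.injective (X.presheaf.stalk x) (KK X))

@[simp] theorem coe_stEquiv (x : X) (a : X.presheaf.stalk x) :
    (stEquiv x a : KK X) = algebraMap _ (KK X) a := rfl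

scoped instance localSt (x : X) : IsLocalRing (St x) := (stEquiv x).toRingEquiv.isLocalRing

/-- `f` is a unit of the local ring at `x` -/
def Un (x : X) (f : KK X) : Prop := f ≠ 0 ∧ f ∈ St x ∧ f⁻¹ ∈ St x

theorem isUnit_iff_Un {x : X} {f : St x} : IsUnit f ↔ Un x (f : KK X) := by
  constructor
  · intro h
    obtain ⟨g, hg⟩ := h.exists_right_inv
    have hg' : (f : KK X) * g = 1 := congrArg Subtype.val hg
    refine ⟨left_ne_zero_of_mul_eq_one hg', f.2, ?_⟩
    rw [← eq_inv_of_mul_eq_one_right hg']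
    exact g.2
  · rintro ⟨h0, -, h2⟩
    exact IsUnit.of_mul_eq_one ⟨_, h2⟩ (Subtype.ext (mul_inv_cancel₀ h0))

theorem isUnit_stalk_iff_Un {x : X} {a : X.presheaf.stalk x} :
    IsUnit a ↔ Un x (algebraMap _ (KK X) a) := by
  rw [← coe_stEquiv, ← isUnit_iff_Un, MulEquiv.isUnit_map]

theorem Un.one (x : X) : Un x 1 := ⟨one_ne_zero, one_mem _, by rw [inv_one]; exact one_mem _⟩

theorem Un.mul {x : X} {f g : KK X} (hf : Un x f) (hg : Un x g) : Un x (f * g) :=
  ⟨mul_ne_zero hf.1 hg.1, mul_mem hf.2.1 hg.2.1, by rw [mul_inv]; exact mul_mem hf.2.2 hg.2.2⟩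

theorem Un.inv {x : X} {f : KK X} (hf : Un x f) : Un x f⁻¹ :=
  ⟨inv_ne_zero hf.1, hf.2.2, by rw [inv_inv]; exact hf.2.1⟩

theorem Un.pow {x : X} {f : KK X} (hf : Un x f) (k : ℕ) : Un x (f ^ k) :=
  ⟨pow_ne_zero k hf.1, pow_mem hf.2.1 k, by rw [← inv_pow]; exact pow_mem hf.2.2 k⟩

/-- a factor of a unit is a unit -/
theorem Un.of_mul {x : X} {f g : KK X} (hf : f ∈ St x) (hg : g ∈ St x)
    (h : Un x (f * g)) : Un x f := by
  have hf0 : f ≠ 0 := left_ne_zero_of_mul h.1
  have hg0 : g ≠ 0 := right_ne_zero_of_mul h.1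
  refine ⟨hf0, hf, ?_⟩
  have : f⁻¹ = g * (f * g)⁻¹ := by field_simp
  rw [this]
  exact mul_mem hg h.2.2

/-- functions regular on `U` -/
noncomputable def Sec (U : X.Opens) : Subalgebra ℂ (KK X) := ⨅ x ∈ U, St x

theorem mem_Sec {U : X.Opens} {f : KK X} : f ∈ Sec U ↔ ∀ x ∈ U, f ∈ St x := by
  simp only [Sec, Algebra.mem_iInf]

theorem Sec_le {U : X.Opens} {x : X} (hx : x ∈ U) : Sec U ≤ St x := fun _ hf => mem_Sec.1 hf x hx

theorem toK_mem_Sec {U : X.Opens} {x : X} (hx : x ∈ U) (s : Γ(X, U)) : toK hx s ∈ Sec U :=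
  mem_Sec.2 fun _ hy => toK_congr hx hy ▸ toK_mem hy s

/-- the prime ideal of `Sec U` of functions vanishing at `x` -/
noncomputable def pr {U : X.Opens} {x : X} (hx : x ∈ U) : Ideal (Sec U) :=
  (IsLocalRing.maximalIdeal (St x)).comap (Subalgebra.inclusion (Sec_le hx))

theorem mem_pr {U : X.Opens} {x : X} (hx : x ∈ U) {f : Sec U} :
    f ∈ pr hx ↔ ¬ Un x (f : KK X) := by
  rw [pr, Ideal.mem_comap, IsLocalRing.mem_maximalIdeal, mem_nonunits_iff, isUnit_iff_Un]
  rfl

scoped instance pr_isPrime {U : X.Opens} {x : X} (hx : x ∈ U) : (pr hx).IsPrime :=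
  Ideal.comap_isPrime _ _

/-- `Sec U → St x` -/
noncomputable abbrev algSecSt {U : X.Opens} {x : X} (hx : x ∈ U) : Algebra (Sec U) (St x) :=
  (Subalgebra.inclusion (Sec_le hx)).toRingHom.toAlgebra

/-- an étale chart: an affine open set with étale coordinates -/
structure Chart (n : ℕ) (V : X.Opens) (ζ : Fin n → Sec V) : Prop where
  aff : IsAffineOpen V
  et : (MvPolynomial.aeval ζ : MvPolynomial (Fin n) ℂ →ₐ[ℂ] Sec V).toRingHom.Etale

end Crest.Agent.R271.S1
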