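import Crest.Agent.R271.S1.Aff

/-! # Row 271, block S1: orders of vanishing along prime divisors -/

set_option autoImplicit false

open AlgebraicGeometry CategoryTheory Crest.AlgGeometry.Divisors Order Set

namespace Crest.Agent.R271.S1

variable {X : Scheme.{0}} [IsIntegral X] [IsLocallyNoetherian X] [Algebra ℂ Γ(X, ⊤)]

omit [Algebra ℂ Γ(X, ⊤)] in
theorem ord_one (z : X) : ord z (1 : KK X) = 0 := by
  have := ord_mul z (one_ne_zero (α := KK X)) one_ne_zero
  rw [mul_one] at this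
  omega

omit [Algebra ℂ Γ(X, ⊤)] in
theorem ord_inv (z : X) {f : KK X} (hf : f ≠ 0) : ord z f⁻¹ = - ord z f := by
  have := ord_mul z hf (inv_ne_zero hf)
  rw [mul_inv_cancel₀ hf, ord_one] at this
  omega

omit [Algebra ℂ Γ(X, ⊤)] in
theorem ord_div (z : X) {f g : KK X} (hf : f ≠ 0) (hg : g ≠ 0) :
    ord z (f / g) = ord z f - ord z g := by
  rw [div_eq_mul_inv, ord_mul z hf (inv_ne_zero hg), ord_inv z hg, sub_eq_add_neg]

omit [Algebra ℂ Γ(X, ⊤)] in
theorem ord_pow (z : X) {f : KK X} (hf : f ≠ 0) (k : ℕ) : ord z (f ^ k) = k * ord z f := by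
  induction k with
  | zero => simp [ord_one]
  | succ k ih => rw [pow_succ, ord_mul z (pow_ne_zero k hf) hf, ih]; push_cast; ring

omit [Algebra ℂ Γ(X, ⊤)] in
theorem ord_zpow (z : X) {f : KK X} (hf : f ≠ 0) (k : ℤ) : ord z (f ^ k) = k * ord z f := by
  obtain ⟨k, rfl | rfl⟩ := k.eq_nat_or_neg
  · rw [zpow_natCast, ord_pow z hf]
  · rw [zpow_neg, zpow_natCast, ord_inv z (pow_ne_zero k hf), ord_pow z hf]; ring

omit [Algebra ℂ Γ(X, ⊤)] in
theorem ord_prod (z : X) {ι : Type*} (s : Finset ι) {f : ι → KK X} (hf : ∀ i ∈ s, f i ≠ 0) :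
    ord z (∏ i ∈ s, f i) = ∑ i ∈ s, ord z (f i) := by
  classical
  induction s using Finset.induction_on with
  | empty => simp [ord_one]
  | insert a s ha ih =>
    rw [Finset.prod_insert ha, Finset.sum_insert ha, ord_mul z (hf a (by simp))
      (Finset.prod_ne_zero_iff.2 fun i hi => hf i (by simp [hi])), ih fun i hi => hf i (by simp [hi])]

/-- A factorial stalk of dimension one is a discrete valuation ring. -/
theorem dvr_stalk (z : PrimeDivisor X) (h : UniqueFactorizationMonoid (St z.1)) :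
    IsDiscreteValuationRing (X.presheaf.stalk z.1) := by
  have := (stEquiv z.1).symm.toMulEquiv.uniqueFactorizationMonoid h
  have h1 : (IsLocalRing.maximalIdeal (X.presheaf.stalk z.1)).height = 1 := by
    have := IsLocalRing.maximalIdeal_height_eq_ringKrullDim (R := X.presheaf.stalk z.1)
    rw [ringKrullDim_stalk_eq_coheight, z.2] at this
    exact WithBot.coe_eq_coe.1 this
  have h2 := UniqueFactorizationMonoid.isPrincipal_of_height_eq_one h1
  have h3 : ¬ IsField (X.presheaf.stalk z.1) :=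
    IsLocalRing.isField_iff_maximalIdeal_eq.not.2 (Ideal.ne_bot_of_height_eq_one h1)
  exact ((IsDiscreteValuationRing.TFAE (X.presheaf.stalk z.1) h3).out 0 4).2 h2

theorem mem_St_iff_ord (z : PrimeDivisor X) (h : UniqueFactorizationMonoid (St z.1)) (f : KK X) :
    f ∈ St z.1 ↔ f = 0 ∨ 0 ≤ ord z.1 f := by
  have := dvr_stalk z h
  by_cases hf : f = 0
  · simp [hf]
  rw [or_iff_right hf]
  have h1 : 0 ≤ ord z.1 f ↔ (1 : WithZero (Multiplicative ℤ)) ≤
      Ring.ordFrac (X.presheaf.stalk z.1) (K := KK X) f := Scheme.le_ord_iff (X := X) z.2 hf (n := 0)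
  rw [h1]
  constructor
  · rintro ⟨a, rfl⟩
    exact Ring.ordFrac_ge_one_of_ne_zero fun h0 => hf (by rw [h0, map_zero])
  · intro h2
    rw [Ring.ordFrac_eq_valuation_inv, one_le_inv₀ (by simpa [zero_lt_iff] using hf)] at h2
    exact IsDiscreteValuationRing.exists_lift_of_le_one h2

theorem exists_unif (z : PrimeDivisor X) (h : UniqueFactorizationMonoid (St z.1)) :
    ∃ π : KK X, π ≠ 0 ∧ ord z.1 π = 1 := by
  have := dvr_stalk z h
  obtain ⟨ϖ, hϖ⟩ := IsDiscreteValuationRing.exists_irreducible (X.presheaf.stalk z.1)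
  have h0 : algebraMap (X.presheaf.stalk z.1) (KK X) ϖ ≠ 0 := fun h1 =>
    hϖ.ne_zero (IsFractionRing.to_map_eq_zero_iff.1 h1)
  have h1 := Ring.ordFrac_irreducible (K := KK X) hϖ
  exact ⟨_, h0, (Scheme.ord_eq_iff (X := X) z.2 h0).2 h1⟩

theorem Un_iff_ord (z : PrimeDivisor X) (h : UniqueFactorizationMonoid (St z.1)) (f : KK X) :
    Un z.1 f ↔ f ≠ 0 ∧ ord z.1 f = 0 := by
  refine and_congr_right fun hf => ?_
  rw [mem_St_iff_ord z h, mem_St_iff_ord z h, ord_inv _ hf]
  simp only [hf, inv_eq_zero, false_or]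
  omega

end Crest.Agent.R271.S1
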