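import Crest.Agent.R271.S1.Chart
import Crest.Agent.R271.S1.Ord
import Crest.Agent.R271.S1.AlgU
import Crest.Agent.R271.S1.AlgO

/-! # Row 271, block S1: factoriality, frames, the ample cover -/

set_option autoImplicit false

open AlgebraicGeometry CategoryTheory Crest.AlgGeometry.Divisors Order Set

namespace Crest.Agent.R271.S1

variable {X : Scheme.{0}} [IsIntegral X] [Algebra ℂ Γ(X, ⊤)]

theorem St_ufd (hU : StUFD) {n : ℕ} (hX : IsSmoothProperVariety ℂ X n) (x : X) :
    UniqueFactorizationMonoid (St x) := by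
  obtain ⟨V, ζ, hx, hV⟩ := exists_chart hX x
  let _ := algSecSt hx
  have := isLocalization_St hV.aff hx
  exact ufd_of_loc (hU n (Sec V) ζ hV.et) (pr hx) (St x)

theorem Sec_isFractionRing {U : X.Opens} (hU : IsAffineOpen U) {x : X} (hx : x ∈ U) :
    IsFractionRing (Sec U) (KK X) := by
  refine IsFractionRing.of_field _ _ fun f => ?_
  obtain ⟨a, ha, b, hb, -, rfl⟩ := Sec_frac hU hx f
  exact ⟨⟨a, ha⟩, ⟨b, hb⟩, rfl⟩

theorem exists_frame {n : ℕ} (hX : IsSmoothProperVariety ℂ X n) (z : X) :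
    ∃ b : Module.Basis (Fin n) (KK X) (Ω[KK X⁄ℂ]),
      Submodule.span (St z) (range b) =
        Submodule.span (St z) (KaehlerDifferential.D ℂ (KK X) '' St z) ∧
      @IsLocalFrameAt ℂ _ X _ _ (fnFieldAlgebra ℂ X) n z b := by
  obtain ⟨V, ζ, hz, hV⟩ := exists_chart hX z
  have := Sec_isFractionRing hV.aff hz
  obtain ⟨b, hb⟩ := exists_basis_of_etale ζ hV.et (nonZeroDivisors (Sec V)) (KK X)
  let _ := algSecSt hz
  have := isLocalization_St hV.aff hz
  have : IsScalarTower ℂ (Sec V) (St z) := IsScalarTower.of_algebraMap_eq fun _ => rfl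
  obtain ⟨b', hb'⟩ := exists_basis_of_etale ζ hV.et (pr hz).primeCompl (St z)
  let _ : Algebra (Sec V) (X.presheaf.stalk z) :=
    ((stEquiv z).symm.toAlgHom.toRingHom.comp (algebraMap (Sec V) (St z))).toAlgebra
  have : IsScalarTower ℂ (Sec V) (X.presheaf.stalk z) :=
    IsScalarTower.of_algebraMap_eq fun c => ((stEquiv z).symm.commutes c).symm
  let e : St z ≃ₐ[Sec V] X.presheaf.stalk z :=
    { (stEquiv z).symm.toRingEquiv with commutes' := fun _ => rfl }
  have : IsLocalization (pr hz).primeCompl (X.presheaf.stalk z) :=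
    IsLocalization.isLocalization_of_algEquiv _ e
  obtain ⟨b'', hb''⟩ := exists_basis_of_etale ζ hV.et (pr hz).primeCompl (X.presheaf.stalk z)
  refine ⟨b, ?_, towerSt z, b'', fun i => ?_, b''.span_eq⟩
  · have h1 := span_D_eq (St z) (fun i => algebraMap (Sec V) (St z) (ζ i))
      (by rw [← b'.span_eq]; congr 2; exact funext fun i => (hb' i).symm)
    rw [← h1]
    congr 2
    exact funext hb
  · have h2 : KaehlerDifferential.map ℂ ℂ (X.presheaf.stalk z) (KK X) (b'' i) = b i := by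
      rw [hb'', KaehlerDifferential.map_D, hb]
      congr 1
      exact congrArg Subtype.val ((stEquiv z).apply_symm_apply (algebraMap (Sec V) (St z) (ζ i)))
    exact h2

omit [Algebra ℂ Γ(X, ⊤)] in
theorem ample_cover [IsLocallyNoetherian X] [CompactSpace X] {L : WeilDiv X} (hL : IsAmple L)
    (x : X) : ∃ (k N : ℕ) (u : Fin (N + 1) → KK X) (U : Fin (N + 1) → X.Opens), 0 < k ∧ x ∈ U 0 ∧
      (∀ y, ∃ i, y ∈ U i) ∧ (∀ i, IsAffineOpen (U i)) ∧ (∀ i, ∃ y, y ∈ U i) ∧ (∀ i, u i ≠ 0) ∧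
      (∀ i (z : PrimeDivisor X), 0 ≤ ord z.1 (u i) + k * L z) ∧
      ∀ i (z : PrimeDivisor X), ord z.1 (u i) + k * L z = 0 ↔ z.1 ∈ U i := by
  choose m hm f hf U hU hxU hUe using hL
  obtain ⟨t, ht⟩ := isCompact_univ.elim_finite_subcover (fun y => (U y : Set X))
    (fun y => (U y).isOpen) fun y _ => mem_iUnion.2 ⟨y, hxU y⟩
  let p : Fin (t.card + 1) → X := Fin.cons x fun i => t.equivFin.symm i
  let e : Fin (t.card + 1) → ℕ := fun i => ∏ j ∈ Finset.univ.erase i, m (p j)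
  have he : ∀ i, 0 < e i := fun i => Finset.prod_pos fun j _ => hm _
  have hk : ∀ i, ∏ j, m (p j) = e i * m (p i) := fun i =>
    (Finset.prod_erase_mul _ _ (Finset.mem_univ i)).symm
  let g : Fin (t.card + 1) → KK X := fun i => f (p i)
  have hg : ∀ i, g i ≠ 0 := fun i => (hf (p i)).1
  have key : ∀ i (z : PrimeDivisor X), ord z.1 (g i ^ e i) + (∏ j, m (p j) : ℕ) * L z =
      e i * (Scheme.ord (f (p i)) z.1 + (m (p i) • L) z) := by
    intro i z
    rw [ord_pow _ (hg i), hk i, Finsupp.smul_apply, nsmul_eq_mul]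
    change _ = _ * (ord z.1 (g i) + _)
    push_cast
    ring
  refine ⟨∏ j, m (p j), t.card, fun i => g i ^ e i, fun i => U (p i),
    Finset.prod_pos fun j _ => hm _, hxU x, fun y => ?_, fun i => hU _, fun i => ⟨_, hxU _⟩,
    fun i => pow_ne_zero _ (hg i), fun i z => ?_, fun i z => ?_⟩
  · obtain ⟨w, hw, hy⟩ := mem_iUnion₂.1 (ht (mem_univ y))
    refine ⟨(t.equivFin ⟨w, hw⟩).succ, ?_⟩
    simpa [p] using hy
  · rw [key]
    exact mul_nonneg (Nat.cast_nonneg _) ((hf (p i)).2 z)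
  · rw [key, mul_eq_zero, or_iff_right (Nat.cast_ne_zero.2 (he i).ne')]
    change _ ↔ z.1 ∈ (U (p i) : Set X)
    rw [hUe]
    exact ⟨fun h z' hz' => pd_eq_of_spec hz' ▸ h, fun h => h z specializes_rfl⟩

end Crest.Agent.R271.S1
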