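import Crest.Agent.R271.S1.Pd

/-! # Row 271, block S1: Hartogs, local equations -/

set_option autoImplicit false

open AlgebraicGeometry CategoryTheory Crest.AlgGeometry.Divisors Order Set

namespace Crest.Agent.R271.S1

variable {X : Scheme.{0}} [IsIntegral X] [IsLocallyNoetherian X] [Algebra ℂ Γ(X, ⊤)]

/-- Hartogs at a point.  Recipe: `f = a / b` with `a, b ∈ St x` coprime (`St_loc`/`Sec_frac`, `UniqueFactorizationMonoid.exists_reduced_factors`
or `IsFractionRing.exists_reduced_fraction`); if `b` is not a unit take a prime `p ∣ b` and its `z`; `a = f * b`, `f ∈ St z`, `¬ Un z b`, so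
`¬ Un z a` (`Un.of_mul`), so `p ∣ a`. -/
theorem hartogs (x : X) (h : UniqueFactorizationMonoid (St x)) {f : KK X}
    (hf : ∀ z : PrimeDivisor X, z.1 ⤳ x → f ∈ St z.1) : f ∈ St x := by
  obtain ⟨U, hU, hx, -⟩ := exists_isAffineOpen_mem_and_subset (X := X) (x := x) (U := ⊤) trivial
  obtain ⟨a, ha, b, hb, hb0, rfl⟩ := Sec_frac hU hx f
  obtain ⟨a', b', c, hrel, ha', hb'⟩ := UniqueFactorizationMonoid.exists_reduced_factors'
    (⟨a, Sec_le hx ha⟩ : St x) ⟨b, Sec_le hx hb⟩ fun h => hb0 (congrArg Subtype.val h)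
  have ha'' : (c : KK X) * a' = a := congrArg Subtype.val ha'
  have hb'' : (c : KK X) * b' = b := congrArg Subtype.val hb'
  have hc0 : (c : KK X) ≠ 0 := left_ne_zero_of_mul (hb'' ▸ hb0)
  have hb'0 : (b' : KK X) ≠ 0 := right_ne_zero_of_mul (hb'' ▸ hb0)
  have hab : a / b = a' / b' := by rw [← ha'', ← hb'', mul_div_mul_left _ _ hc0]
  rw [hab] at hf ⊢
  have hu : IsUnit b' := by
    by_contra hu
    obtain ⟨p, hp, hpb⟩ := WfDvdMonoid.exists_irreducible_factor hu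
      fun h => hb'0 (congrArg Subtype.val h)
    obtain ⟨z, hz, hzp⟩ := exists_pd_of_prime x p hp.prime
    have h1 : ¬ Un z.1 (a' : KK X) := fun h => (hzp b').1 (Un.of_mul (St_le_of_spec hz b'.2)
      (hf z hz) (by rwa [mul_div_cancel₀ _ hb'0])) hpb
    exact hp.not_isUnit (hrel (not_not.1 ((hzp a').not.1 h1)) hpb)
  rw [div_eq_mul_inv]
  exact mul_mem a'.2 (isUnit_iff_Un.1 hu).2.2

/-- Recipe: `p` from `exists_prime_of_pd`.  `ord z p ≥ 1` (`Un_iff_ord`, `mem_St_iff_ord`).  A uniformiser (`exists_unif`) is `a / b` with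
`a, b ∈ Sec U ≤ St x`, `Un z b` (`St_loc` at `z`, `U ∋ x` affine); `¬ Un z a`, so `a = p a'` and `1 = ord a = ord p + ord a' ≥ ord p`.
If `z' ⤳ x` and `ord z' p ≠ 0`, then `p' ∣ p` for the equation `p'` of `z'`, so `p ∣ p'` (`Prime.associated_of_dvd`), `pr hz = pr hz'`,
`z ⤳ z'` (`spec_of_pr_le`), `z = z'` (`pd_eq_of_spec`). -/
theorem exists_equation (H : ∀ x : X, UniqueFactorizationMonoid (St x)) (x : X)
    (z : PrimeDivisor X) (hz : z.1 ⤳ x) : ∃ π : KK X, π ≠ 0 ∧ ord z.1 π = 1 ∧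
      ∀ z' : PrimeDivisor X, z'.1 ⤳ x → z' ≠ z → ord z'.1 π = 0 := by
  obtain ⟨U, hU, hx, -⟩ := exists_isAffineOpen_mem_and_subset (X := X) (x := x) (U := ⊤) trivial
  obtain ⟨p, hp, hzp⟩ := exists_prime_of_pd x (H x) z hz
  have hp0 : (p : KK X) ≠ 0 := fun h => hp.ne_zero (Subtype.ext h)
  have hzU : z.1 ∈ U := hz.mem_open U.isOpen hx
  have hge : ∀ f : St x, (f : KK X) ≠ 0 → 0 ≤ ord z.1 (f : KK X) := fun f hf =>
    ((mem_St_iff_ord z (H _) _).1 (St_le_of_spec hz f.2)).resolve_left hf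
  refine ⟨p, hp0, ?_, fun z' hz' hne => ?_⟩
  · have h1 : ord z.1 (p : KK X) ≠ 0 := fun h =>
      (hzp p).1 ((Un_iff_ord z (H _) _).2 ⟨hp0, h⟩) dvd_rfl
    obtain ⟨π, hπ0, hπ⟩ := exists_unif z (H _)
    obtain ⟨a, ha, b, hb, hbu, rfl⟩ := St_loc hU hzU
      ((mem_St_iff_ord z (H _) π).2 (Or.inr (by omega)))
    have ha0 : a ≠ 0 := fun h => hπ0 (by rw [h, zero_div])
    rw [ord_div _ ha0 hbu.1, ((Un_iff_ord z (H _) _).1 hbu).2, sub_zero] at hπ
    obtain ⟨c, hc⟩ : p ∣ ⟨a, Sec_le hx ha⟩ := not_not.1 fun h => by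
      have := ((Un_iff_ord z (H _) _).1 ((hzp _).2 h)).2
      change ord z.1 a = 0 at this
      omega
    have hc' : a = p * c := congrArg Subtype.val hc
    have hc0 : (c : KK X) ≠ 0 := right_ne_zero_of_mul (hc' ▸ ha0)
    rw [hc', ord_mul _ hp0 hc0] at hπ
    have := hge p hp0
    have := hge c hc0
    omega
  · by_contra h
    obtain ⟨p', hp', hzp'⟩ := exists_prime_of_pd x (H x) z' hz'
    have h1 : p' ∣ p := not_not.1 fun h1 => h ((Un_iff_ord z' (H _) _).1 ((hzp' p).2 h1)).2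
    have hz'U : z'.1 ∈ U := hz'.mem_open U.isOpen hx
    refine hne (pd_eq_of_spec (spec_of_pr_le hU hzU hz'U fun g hg => ?_)).symm
    rw [mem_pr] at hg ⊢
    have h2 : p ∣ ⟨g, Sec_le hx g.2⟩ := not_not.1 ((hzp ⟨g, Sec_le hx g.2⟩).not.1 hg)
    exact fun h3 => (hzp' ⟨g, Sec_le hx g.2⟩).1 h3 (h1.trans h2)

/-- Every Weil divisor is locally principal.  Recipe: `h = ∏ z ∈ L.support, π z ^ (- L z)` with `π z` from `exists_equation` if `z ⤳ x`
and `1` otherwise (`ord_prod`, `ord_zpow`, `Finset.sum_eq_single`). -/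
theorem exists_local_eq (H : ∀ x : X, UniqueFactorizationMonoid (St x)) (L : WeilDiv X) (x : X) :
    ∃ h : KK X, h ≠ 0 ∧ ∀ z : PrimeDivisor X, z.1 ⤳ x → ord z.1 h + L z = 0 := by
  classical
  choose! π hπ0 hπ1 hπ2 using exists_equation H x
  let s := L.support.filter fun z => z.1 ⤳ x
  have hs : ∀ z ∈ s, π z ^ (- L z) ≠ 0 := fun z hz =>
    zpow_ne_zero _ (hπ0 z (Finset.mem_filter.1 hz).2)
  refine ⟨∏ z ∈ s, π z ^ (- L z), Finset.prod_ne_zero_iff.2 hs, fun z hz => ?_⟩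
  rw [ord_prod _ _ hs, Finset.sum_eq_single z]
  · rw [ord_zpow _ (hπ0 z hz), hπ1 z hz]
    ring
  · intro z' hz' hne
    have h1 := (Finset.mem_filter.1 hz').2
    rw [ord_zpow _ (hπ0 z' h1), hπ2 z' h1 z hz hne.symm, mul_zero]
  · intro h
    have h1 : L z = 0 := by simpa [s, hz] using h
    rw [h1, neg_zero, zpow_zero, ord_one]

end Crest.Agent.R271.S1
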