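import Crest.Agent.R271.S1.Aff

/-! # Row 271, block S1: valuative criterion -/

set_option autoImplicit false

open AlgebraicGeometry CategoryTheory Crest.AlgGeometry.Divisors Order Set

namespace Crest.Agent.R271.S1

variable {X : Scheme.{0}} [IsIntegral X] [Algebra ℂ Γ(X, ⊤)]

/-- Recipe: `UniversallyClosed.eq_valuativeCriterion` (or `IsProper.eq_valuativeCriterion`): `ValuativeCriterion.Existence f` for
`f = structureMorphism ℂ X`.  The square: `R = V`, `K = KK X`, `i₁ = X.fromSpecStalk (genericPoint X)` (note `KK X` is by definition the stalk at the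
generic point), `i₂ = Spec.map (ofHom (ℂ →+* V))`; commutativity by `Spec.map`-calculus: `fromSpecStalk ≫ toSpecΓ = Spec.map (germ ⊤)`
(`Scheme.fromSpecStalk_toSpecΓ`).  A lift `l : Spec V ⟶ X`; put `x = l (closedPoint V)`, `φ = Scheme.stalkClosedPointTo l : stalk x ⟶ V`,
`Spec.map φ ≫ X.fromSpecStalk x = l` (`Scheme.Spec_stalkClosedPointTo_fromSpecStalk`).  Then
`Spec.map (φ ≫ (V → K)) ≫ fromSpecStalk x = i₁ = Spec.map (stalkSpecializes _) ≫ fromSpecStalk x`
(`Scheme.SpecMap_stalkSpecializes_fromSpecStalk`), `fromSpecStalk x` is mono (preimmersion), `Spec.map` is injective, so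
`algebraMap (stalk x) K = V.subtype ∘ φ`. -/
theorem exists_St_le {n : ℕ} (hX : IsSmoothProperVariety ℂ X n) (V : ValuationSubring (KK X))
    (hV : ∀ c : ℂ, algebraMap ℂ (KK X) c ∈ V) : ∃ x : X, ∀ f ∈ St x, f ∈ V := by
  haveI := hX.2.1
  have hE : ValuativeCriterion.Existence (structureMorphism ℂ X) := by
    have : UniversallyClosed (structureMorphism ℂ X) := inferInstance
    rw [UniversallyClosed.eq_valuativeCriterion] at this
    exact this.1
  have w : X.fromSpecStalk (genericPoint X) ≫ structureMorphism ℂ X =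
      Spec.map (CommRingCat.ofHom (algebraMap V (KK X))) ≫
        Spec.map (CommRingCat.ofHom ((algebraMap ℂ (KK X)).codRestrict V.toSubring hV)) := by
    rw [structureMorphism, Scheme.fromSpecStalk_toSpecΓ_assoc, ← Spec.map_comp]
    exact (Spec.map_comp _ _).symm.symm.trans (by rw [← Spec.map_comp, ← Spec.map_comp]; rfl)
  let S : ValuativeCommSq (structureMorphism ℂ X) :=
    { R := V, K := KK X, i₁ := X.fromSpecStalk (genericPoint X),
      i₂ := Spec.map (CommRingCat.ofHom ((algebraMap ℂ (KK X)).codRestrict V.toSubring hV)), commSq := ⟨w⟩ }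
  obtain ⟨l, hl₁, -⟩ := (hE S).exists_lift
  refine ⟨l (IsLocalRing.closedPoint V), ?_⟩
  rintro _ ⟨a, rfl⟩
  have h1 : Spec.map (Scheme.stalkClosedPointTo l ≫ CommRingCat.ofHom (algebraMap V (KK X))) ≫
      X.fromSpecStalk (l (IsLocalRing.closedPoint V)) =
      Spec.map (X.presheaf.stalkSpecializes (genericPoint_specializes _)) ≫
        X.fromSpecStalk (l (IsLocalRing.closedPoint V)) := by
    rw [Spec.map_comp, Category.assoc, Scheme.Spec_stalkClosedPointTo_fromSpecStalk]
    exact hl₁.trans (Scheme.SpecMap_stalkSpecializes_fromSpecStalk _).symm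
  have h2 := Spec.map_injective ((cancel_mono _).1 h1)
  have h3 := congrArg (fun φ => φ.hom a) h2
  change (((Scheme.stalkClosedPointTo l).hom a : V) : KK X) = algebraMap _ (KK X) a at h3
  change algebraMap _ (KK X) a ∈ V
  rw [← h3]
  exact ((Scheme.stalkClosedPointTo l).hom a).2

end Crest.Agent.R271.S1
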