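import Crest.Agent.R271.S1.Glue
import Crest.Agent.R271.S1.Val
import Crest.Agent.R271.S1.Cart
import Crest.Agent.R271.S1.AlgT
import Crest.Agent.R271.S1.AlgR

/-! # Row 271, block S1.  From the scheme to the valuation model. See `Crest/Agent/R271/Blueprint.lean`, section S1. -/

set_option autoImplicit false

open AlgebraicGeometry CategoryTheory Crest.AlgGeometry.Divisors Order Set

namespace Crest.Agent.R271

open S1

theorem stMain_of (hU : StUFD) (hV : StV) : StMain := by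
  intro X _ _ _ n hn hX L hL Kd hK m hm x'
  have H : ∀ x : X, UniqueFactorizationMonoid (St x) := St_ufd hU hX
  have := compactSpace hX
  obtain ⟨k, N, u, U, hk, hx', hcov, haff, hne, hu0, hus, hU⟩ := ample_cover hL x'
  have hft : ∀ i, Algebra.FiniteType ℂ (Sec (U i)) := fun i =>
    Sec_finiteType hX (haff i) (hne i).choose_spec
  have hno : ∀ i, IsNoetherianRing (Sec (U i)) := fun i =>
    Algebra.FiniteType.isNoetherianRing ℂ _
  -- a closed point
  obtain ⟨𝔪, h𝔪, hle⟩ := Ideal.exists_le_maximal (pr hx') (pr_isPrime hx').ne_top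
  obtain ⟨x, hx, rfl⟩ := exists_pr (haff 0) hx' 𝔪
  have hsp : x' ⤳ x := spec_of_pr_le (haff 0) hx' hx hle
  obtain ⟨ev, hev⟩ : ∃ ev : St x →ₐ[ℂ] ℂ, ∀ f : St x, ev f ≠ 0 ↔ Un x (f : KK X) := by
    let _ := algSecSt hx
    have := isLocalization_St (haff 0) hx
    have : IsScalarTower ℂ (Sec (U 0)) (St x) := IsScalarTower.of_algebraMap_eq fun _ => rfl
    obtain ⟨ev, hev⟩ := exists_ev (pr hx) (St x)
    exact ⟨ev, fun f => (hev f).trans isUnit_iff_Un⟩
  have hloc : ∀ {W : X.Opens} (_ : IsAffineOpen W) (hW : x ∈ W), ∀ f ∈ St x, ∃ a ∈ Sec W, ∃ b : Sec W,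
      ev (Subalgebra.inclusion (Sec_le hW) b) ≠ 0 ∧ f = a / b := by
    intro W hW hxW f hf
    obtain ⟨a, ha, b, hb, h1, h2⟩ := St_loc hW hxW hf
    exact ⟨a, ha, ⟨b, hb⟩, (hev _).2 h1, h2⟩
  obtain ⟨V, ζ, hxV, hVc⟩ := exists_chart hX x
  obtain ⟨ω, ⟨b₀, hb₀⟩, hω⟩ := hK
  let ω' : RatTopForm ℂ (KK X) n := ω
  have hb₀' : ∃ b, ω'.coef b ≠ 0 := ⟨b₀, hb₀⟩
  let v : VM n (KK X) :=
    { ι := PrimeDivisor X
      ord := fun z f => ord z.1 f
      ord_mul := fun z f g hf hg => ord_mul z.1 hf hg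
      O := fun z => St z.1
      mem_O := fun z f => mem_St_iff_ord z (H _) f
      unif := fun z => exists_unif z (H _)
      fin_supp := fun f hf => (finite_iUnion fun i => finite_poles_affine H (haff i) hf).subset
        fun z hz => mem_iUnion.2 ((hcov z.1).imp fun i hi => ⟨hi, hz⟩)
      trdeg := trdeg_of_etale (Sec V) (Sec_frac hVc.aff hxV) ζ hVc.et
      L := L
      k₀ := k
      k₀_pos := hk
      N := N
      u := u
      u_ne := hu0
      u_sec := hus
      cover := fun z => (hcov z.1).imp fun i hi => (hU i z).2 hi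
      C := fun i => Sec (U i)
      fg := fun i => (Subalgebra.fg_iff_finiteType _).2 (hft i)
      mem_C := fun i f => ⟨fun hf z hz => Sec_le ((hU i z).1 hz) hf, fun hf =>
        mem_Sec.2 fun y hy => hartogs y (H y) fun z hz =>
          hf z ((hU i z).2 (hz.mem_open (U i).isOpen hy))⟩
      frac := fun i f => by
        obtain ⟨a, ha, b, hb, -, h⟩ := Sec_frac (haff i) (hne i).choose_spec f
        exact ⟨a, ha, b, hb, h⟩
      loc := fun i z hz f hf => by
        obtain ⟨a, ha, b, hb, h1, h2⟩ := St_loc (haff i) ((hU i z).1 hz) hf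
        exact ⟨a, ha, b, hb, h1.1, ((Un_iff_ord z (H _) b).1 h1).2, h2⟩
      val := fun W hW => by
        obtain ⟨y, hy⟩ := exists_St_le hX W hW
        obtain ⟨i, hi⟩ := hcov y
        exact ⟨i, fun f hf => hy f (Sec_le hi hf)⟩
      cartier := fun i => by
        obtain ⟨q, h, c, h1, h2, h3⟩ := cartier_data H (haff i) (hne i).choose_spec L k (hu0 i)
          fun z hz => (hU i z).2 hz
        exact ⟨q, h, c, h1, fun a z hz => h2 a z ((hU i z).1 hz), h3⟩
      x := ev.comp (Subalgebra.inclusion (Sec_le hx))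
      reg := reg_of_etale (St x) (Sec (U 0)) (Sec V) (Sec_le hx) (Sec_le hxV) ev
        (fun f hf => ((hev f).1 hf).2.2) (hloc (haff 0) hx) (hloc hVc.aff hxV) ζ hVc.et
      Kc := Kd
      form := ω'
      form_ne := fun b hb => by
        obtain ⟨b₁, hb₁⟩ := hb₀'
        exact hb₁ (by rw [← ω'.law b₁ b, hb, zero_mul])
      frame := fun z => by
        obtain ⟨b, h1, h2⟩ := exists_frame hX z.1
        exact ⟨b, h1, hω z b h2⟩ }
  obtain ⟨f, hf0, hf1, hf2⟩ := hV n (KK X) v m hn hm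
  have hc : ∀ z : PrimeDivisor X, (Kd + m • L) z = Kd z + m * L z := fun z => by
    rw [Finsupp.add_apply, Finsupp.smul_apply, nsmul_eq_mul]
  refine ⟨f, ⟨hf0, fun z => hc z ▸ hf1 z⟩, fun z hz => hc z ▸ hf2 z ⟨?_, fun a ha => ?_⟩⟩
  · exact (hU 0 z).2 (hz.mem_open (U 0).isOpen hx')
  · exact ((Un_iff_ord z (H _) _).1 (((hev _).1 ha).of_spec (hz.trans hsp))).2

end Crest.Agent.R271
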