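import Crest.Agent.R271.S1.Ord

/-! # Row 271, block S1: prime elements and prime divisors -/

set_option autoImplicit false
set_option linter.unusedSectionVars false

open AlgebraicGeometry CategoryTheory Crest.AlgGeometry.Divisors Order Set

namespace Crest.Agent.R271.S1

variable {X : Scheme.{0}} [IsIntegral X] [IsLocallyNoetherian X] [Algebra ℂ Γ(X, ⊤)]

omit [IsLocallyNoetherian X] in
theorem Un_iff_notMem {U : X.Opens} (hU : IsAffineOpen U) {x z : X} (hx : x ∈ U) (hz : z ∈ U)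
    (h : z ⤳ x) (J : Ideal (St x))
    (hJ : ∀ a : Sec U, a ∈ pr hz ↔ Subalgebra.inclusion (Sec_le hx) a ∈ J) (f : St x) :
    Un z (f : KK X) ↔ f ∉ J := by
  obtain ⟨a, ha, b, hb, h1, h2⟩ := St_loc hU hx f.2
  have h3 : (f : KK X) * b = a := by rw [h2, div_mul_cancel₀ _ h1.1]
  have h4 : Subalgebra.inclusion (Sec_le hx) ⟨a, ha⟩ = f * ⟨b, h1.2.1⟩ := Subtype.ext h3.symm
  rw [← J.mul_unit_mem_iff_mem (y := ⟨b, h1.2.1⟩) (isUnit_iff_Un.2 h1), ← h4, ← hJ, mem_pr, not_not]
  change _ ↔ Un z a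
  rw [← h3]
  exact ⟨fun h5 => h5.mul (h1.of_spec h), Un.of_mul (St_le_of_spec h f.2) (Sec_le hz hb)⟩

/-- A prime element of the local ring at `x` defines a prime divisor through `x`.
Recipe: affine `U ∋ x` (`exists_isAffineOpen_mem_and_subset` / `X.isBasis_affineOpens`), `letI := algSecSt hx`, `isLocalization_St`;
`𝔭 = (span {p}).comap (algebraMap (Sec U) (St x))` is prime, `≤ pr hx`, of height one (`IsLocalization.height_comap`/`height_under`,
`Ideal.height_span_singleton_eq_one_of_mem_nonZeroDivisors` or the `UFD` lemma `Ideal.height_eq_one...`); `exists_pr` gives `z`, `height_pr`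
gives `coheight z = 1`, `spec_of_pr_le` gives `z ⤳ x`.  For `f = a / b` (`St_loc`): `Un z f ↔ Un z a ↔ a ∉ 𝔭 ↔ ¬ p ∣ a ↔ ¬ p ∣ f`. -/
theorem exists_pd_of_prime (x : X) (p : St x) (hp : Prime p) :
    ∃ z : PrimeDivisor X, z.1 ⤳ x ∧ ∀ f : St x, Un z.1 (f : KK X) ↔ ¬ p ∣ f := by
  obtain ⟨U, hU, hx, -⟩ := exists_isAffineOpen_mem_and_subset (X := X) (x := x) (U := ⊤) trivial
  let _ := algSecSt hx
  have := isLocalization_St hU hx
  have : IsNoetherianRing (St x) := isNoetherianRing_of_ringEquiv _ (stEquiv x).toRingEquiv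
  have hJ : (Ideal.span {p}).IsPrime := (Ideal.span_singleton_prime hp.ne_zero).2 hp
  obtain ⟨z, hz, e⟩ := exists_pr hU hx ((Ideal.span {p}).under (Sec U))
  have h1 : coheight z = 1 := by
    rw [← height_pr hU hz, e, IsLocalization.height_under (pr hx).primeCompl]
    exact Ideal.height_span_singleton_eq_one_of_mem_nonZeroDivisors
      (mem_nonZeroDivisors_of_ne_zero hp.ne_zero) hp.not_isUnit
  have h2 : z ⤳ x := spec_of_pr_le hU hz hx
    (e ▸ Ideal.comap_mono (IsLocalRing.le_maximalIdeal hJ.ne_top))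
  exact ⟨⟨z, h1⟩, h2, fun f => by
    rw [Un_iff_notMem hU hx hz h2 (Ideal.span {p}) (fun a => by rw [e]; rfl), Ideal.mem_span_singleton]⟩

/-- A prime divisor through `x` has a local equation.
Recipe: affine `U ∋ x`, then `z ∈ U` (`Specializes.mem_open`), `pr hz ≤ pr hx` (`Un.of_spec`), `𝔮 = (pr hz).map (algebraMap (Sec U) (St x))` is a
prime of height one of the factorial ring `St x` (`IsLocalization.isPrime_of_isPrime_disjoint`, `IsLocalization.height_map_of_disjoint`,
`height_pr`), so `𝔮 = span {p}` (`UniqueFactorizationMonoid.isPrincipal_of_height_eq_one`-like; or: `𝔮 ≠ ⊥` contains a prime element `p`,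
`Ideal.IsPrime.exists_mem_prime_of_ne_bot`, and `⊥ < span {p} ≤ 𝔮`).  For `f = a / b` (`St_loc`): `Un z f ↔ Un z a ↔ a ∉ pr hz ↔ ¬ p ∣ f`. -/
theorem exists_prime_of_pd (x : X) (h : UniqueFactorizationMonoid (St x)) (z : PrimeDivisor X)
    (hz : z.1 ⤳ x) : ∃ p : St x, Prime p ∧ ∀ f : St x, Un z.1 (f : KK X) ↔ ¬ p ∣ f := by
  obtain ⟨U, hU, hx, -⟩ := exists_isAffineOpen_mem_and_subset (X := X) (x := x) (U := ⊤) trivial
  let _ := algSecSt hx
  have := isLocalization_St hU hx
  have hzU : z.1 ∈ U := hz.mem_open U.isOpen hx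
  have hd : Disjoint ((pr hx).primeCompl : Set (Sec U)) (pr hzU : Set (Sec U)) :=
    disjoint_left.2 fun a h1 h2 => (mem_pr hzU).1 h2
      (Un.of_spec hz (not_not.1 fun h3 => h1 ((mem_pr hx).2 h3)))
  have hJ := IsLocalization.isPrime_of_isPrime_disjoint _ (St x) _ inferInstance hd
  have h1 := IsLocalization.height_map_of_disjoint (S := St x) _ _ hd
  rw [height_pr hU hzU, z.2] at h1
  obtain ⟨p, hp⟩ := UniqueFactorizationMonoid.isPrincipal_of_height_eq_one h1
  have hp0 : p ≠ 0 := fun h0 => Ideal.ne_bot_of_height_eq_one h1 (by rw [hp, h0]; simp)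
  have h2 := IsLocalization.under_map_of_isPrime_disjoint _ (St x) inferInstance hd
  rw [hp] at hJ h2
  exact ⟨p, (Ideal.span_singleton_prime hp0).1 hJ, fun f => by
    rw [Un_iff_notMem hU hx hzU hz (Ideal.span {p}) (fun a => by rw [← h2]; rfl),
      Ideal.mem_span_singleton]⟩

end Crest.Agent.R271.S1
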